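import Vale.Agent.P171.Final

namespace Vale.Agent.Results.P171.PhaseTransition

open Set MeasureTheory Filter Topology

/-- The energy `U_N = ∑_{i<j} φ(|x_i - x_j|)`. -/
noncomputable def energy (φ : ℝ → ℝ) {N : ℕ} (x : Fin N → EuclideanSpace ℝ (Fin 3)) : ℝ :=
  ∑ i, ∑ j ∈ Finset.Ioi i, φ (dist (x i) (x j))

/-- `φ` is bounded on every compact subinterval of `(0, ∞)`. -/
def LocallyBounded (φ : ℝ → ℝ) : Prop :=
  ∀ a b : ℝ, 0 < a → ∃ M : ℝ, ∀ r ∈ Set.Icc a b, |φ r| ≤ M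

/-- Stability. -/
def Stable (φ : ℝ → ℝ) : Prop :=
  ∃ B : ℝ, ∀ (N : ℕ) (x : Fin N → EuclideanSpace ℝ (Fin 3)), Function.Injective x →
    -(B * N) ≤ energy φ x

/-- Temperedness. -/
def Tempered (φ : ℝ → ℝ) : Prop :=
  ∃ C ε R₀ : ℝ, 0 < C ∧ 0 < ε ∧ 0 < R₀ ∧ ∀ r, R₀ ≤ r → φ r ≤ C * r ^ (-3 - ε)

/-- The cube `[0, L]^3`. -/
def cube (L : ℝ) : Set (EuclideanSpace ℝ (Fin 3)) := {x | ∀ i, x i ∈ Set.Icc 0 L}

/-- The canonical partition function `Z_{L,N}(β)`. -/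
noncomputable def canonical (φ : ℝ → ℝ) (β L : ℝ) (N : ℕ) : ℝ :=
  1 / (Nat.factorial N : ℝ) * ∫ x in Set.univ.pi (fun _ : Fin N => cube L), Real.exp (-β * energy φ x)

/-- The finite-volume pressure `L^{-3} log ∑_N z^N Z_{L,N}(β)`. -/
noncomputable def finitePressure (φ : ℝ → ℝ) (β z L : ℝ) : ℝ :=
  Real.log (∑' N : ℕ, z ^ N * canonical φ β L N) / L ^ 3

open Vale.Agent.P171 in
theorem result : ∃ φ : ℝ → ℝ, Measurable φ ∧ LocallyBounded φ ∧ Stable φ ∧ Tempered φ ∧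
    ∃ β : ℝ, 0 < β ∧
      (∀ L, 0 ≤ L → ∀ N : ℕ, IntegrableOn (fun x => Real.exp (-β * energy φ x))
        (Set.univ.pi fun _ : Fin N => cube L)) ∧
      (∀ z, 0 < z → ∀ L, 0 ≤ L → Summable fun N : ℕ => z ^ N * canonical φ β L N) ∧
      ∃ Pr : ℝ → ℝ,
      (∀ z, 0 < z → Tendsto (finitePressure φ β z) atTop (𝓝 (Pr z))) ∧
      ∃ z, 0 < z ∧ ¬ DifferentiableAt ℝ Pr z := by
  obtain ⟨ψ, h, ha, hle, h2, hmax⟩ := exists_max
  refine ⟨pot ψ, (rep_meas.const_mul _).sub h.good.meas, fun a b _ => ⟨2 * hh + 400000, ?_⟩,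
    ⟨hh, fun N x _ => ?_⟩, ⟨1, 1, 3, one_pos, one_pos, by norm_num, fun r hr => ?_⟩, 1, one_pos,
    fun L hL N => bridge_integrable h hL N, fun z hz L hL => bridge_summable h hz hL,
    fun z => pr (Real.log z - ψ 0 / 2) ψ, fun z hz => ?_, ?_⟩
  · intro r _
    have a1 := hle r
    have a2 := h.good.nonneg r
    have a3 := hh_pos
    unfold pot rep
    rw [abs_le]
    split_ifs <;> constructor <;> linarith
  · have a1 := stab h.good le_rfl (-(ψ 0 / 2)) N x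
    have a2 := S_nonneg N x
    have a3 := mul_nonneg (h.good.nonneg 0) (Nat.cast_nonneg (α := ℝ) N)
    rw [energy_eq] at a1
    unfold energy
    linarith
  · have a1 : rep r = 0 := if_neg (by linarith)
    have a2 := h.good.nonneg r
    have a3 : 0 ≤ r ^ (-3 - 1 : ℝ) := Real.rpow_nonneg (by linarith) _
    unfold pot
    rw [a1]
    linarith
  · refine (h.tends _).congr' ((eventually_ge_atTop 0).mono fun L hL => ?_)
    exact congrArg (fun y => Real.log y / L ^ 3) (bridge h hz hL).symm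
  · by_contra hn
    refine not_diff h ha h2 hmax fun μ => ?_
    have h1 : DifferentiableAt ℝ (fun z => pr (Real.log z - ψ 0 / 2) ψ) (Real.exp (μ + ψ 0 / 2)) := by
      by_contra h1
      exact hn ⟨_, Real.exp_pos _, h1⟩
    have h3 := h1.comp μ (f := fun μ => Real.exp (μ + ψ 0 / 2)) (by fun_prop)
    simpa [Function.comp_def] using h3

end Vale.Agent.Results.P171.PhaseTransition
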